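import Vale.Agent.P061.Defs

/-! P061, module CLUS: the optimal labelling (helper26) -/

namespace Vale.P061.CLUS

universe u

open Finset

variable {V : Type u} [Fintype V] [DecidableEq V]

/-- the objective -/
noncomputable def Phi (w : V → V → ℝ) (P : V → Option V) : ℝ :=
  ∑ u, ∑ v, if P u ≠ P v then w u v else 0

lemma sum_ite2 (A C : Finset V) (w : V → V → ℝ) :
    ∑ u, ∑ v, (if u ∈ A ∧ v ∈ C then w u v else 0) = ∑ u ∈ A, ∑ v ∈ C, w u v := by
  rw [← Finset.sum_filter_add_sum_filter_not univ (fun u => u ∈ A)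
    (fun u => ∑ v, (if u ∈ A ∧ v ∈ C then w u v else 0))]
  have h1 : ∑ u ∈ univ.filter (fun u => ¬ u ∈ A), ∑ v, (if u ∈ A ∧ v ∈ C then w u v else 0) = 0 := by
    refine sum_eq_zero fun u hu => sum_eq_zero fun v _ => ?_
    rw [if_neg]
    intro h
    exact (mem_filter.1 hu).2 h.1
  have h2 : univ.filter (fun u => u ∈ A) = A := by
    ext u
    simp
  rw [h1, add_zero, h2]
  refine sum_congr rfl fun u hu => ?_
  have h3 : ∀ v, (if u ∈ A ∧ v ∈ C then w u v else 0) = if v ∈ C then w u v else 0 := by
    intro v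
    simp [hu]
  rw [sum_congr rfl fun v _ => h3 v, ← sum_filter]
  refine sum_congr ?_ fun _ _ => rfl
  ext v
  simp

lemma sum_swap (A C : Finset V) (w : V → V → ℝ) (hw : ∀ u v, w u v = w v u) :
    ∑ u, ∑ v, (if v ∈ A ∧ u ∈ C then w u v else 0) = ∑ u ∈ A, ∑ v ∈ C, w u v := by
  rw [sum_comm, ← sum_ite2 A C w]
  refine sum_congr rfl fun u _ => sum_congr rfl fun v _ => ?_
  rw [hw v u]

lemma exists_max (w : V → V → ℝ) : ∃ P : V → Option V, ∀ Q, Phi w Q ≤ Phi w P := by
  obtain ⟨P, hP⟩ := Finite.exists_max (Phi w)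
  exact ⟨P, hP⟩

lemma exists_fresh (P : V → Option V) : ∃ b : Option V, ∀ v, P v ≠ b := by
  by_contra h
  push Not at h
  have hs : Function.Surjective P := fun b => h b
  have h1 := Fintype.card_le_of_surjective P hs
  rw [Fintype.card_option] at h1
  omega

theorem thm : StmtCLUS.{u} := by
  intro V _ _ mu hmu lam
  obtain ⟨P, hP⟩ := exists_max (fun u v : V => lam - (mu u v : ℝ))
  have hw : ∀ u v : V, lam - (mu u v : ℝ) = lam - (mu v u : ℝ) := by
    intro u v
    rw [hmu u v]
  refine ⟨P, ?_, ?_⟩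
  · intro a A hA
    obtain ⟨b, hb⟩ := exists_fresh P
    set C := cls P a \ A with hC
    have hQ := hP (fun v => if v ∈ A then b else P v)
    have hpt : ∀ u v : V,
        (if (if u ∈ A then b else P u) ≠ (if v ∈ A then b else P v) then
          lam - (mu u v : ℝ) else 0) =
        (if P u ≠ P v then lam - (mu u v : ℝ) else 0) +
        ((if u ∈ A ∧ v ∈ C then lam - (mu u v : ℝ) else 0) +
          (if v ∈ A ∧ u ∈ C then lam - (mu u v : ℝ) else 0)) := by
      intro u v
      have hAu : u ∈ A → P u = a := fun h => (mem_filter.1 (hA h)).2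
      have hAv : v ∈ A → P v = a := fun h => (mem_filter.1 (hA h)).2
      have hCu : u ∈ C ↔ P u = a ∧ u ∉ A := by
        rw [hC, mem_sdiff]
        simp [cls]
      have hCv : v ∈ C ↔ P v = a ∧ v ∉ A := by
        rw [hC, mem_sdiff]
        simp [cls]
      have hbu := hb u
      have hbv := hb v
      by_cases h1 : u ∈ A
      · by_cases h2 : v ∈ A
        · simp [h1, h2, hAu h1, hAv h2, hCu, hCv]
        · by_cases h3 : P v = a
          · have : b ≠ a := by rw [← h3]; exact hbv.symm
            simp [h1, h2, hAu h1, h3, hCu, hCv, this]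
          · have : a ≠ P v := fun h => h3 h.symm
            simp [h1, h2, hAu h1, h3, hCu, hCv, hbv.symm, this]
      · by_cases h2 : v ∈ A
        · by_cases h3 : P u = a
          · have : a ≠ b := by rw [← h3]; exact hbu
            simp [h1, h2, hAv h2, h3, hCu, hCv, this]
          · simp [h1, h2, hAv h2, h3, hCu, hCv, hbu]
        · simp [h1, h2]
    have hsum : Phi (fun u v : V => lam - (mu u v : ℝ)) (fun v => if v ∈ A then b else P v) =
        Phi (fun u v : V => lam - (mu u v : ℝ)) P +
        (∑ u ∈ A, ∑ v ∈ C, (lam - (mu u v : ℝ)) + ∑ u ∈ A, ∑ v ∈ C, (lam - (mu u v : ℝ))) := by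
      rw [← sum_ite2 A C (fun u v : V => lam - (mu u v : ℝ))]
      conv_rhs => rw [sum_ite2 A C (fun u v : V => lam - (mu u v : ℝ))]
      conv_rhs =>
        arg 2
        rw [← sum_ite2 A C (fun u v : V => lam - (mu u v : ℝ))]
      unfold Phi
      rw [sum_congr rfl fun u _ => sum_congr rfl fun v _ => hpt u v]
      simp only [sum_add_distrib]
      rw [sum_swap A C (fun u v : V => lam - (mu u v : ℝ)) hw,
        sum_ite2 A C (fun u v : V => lam - (mu u v : ℝ))]
    rw [hsum] at hQ
    have hle : ∑ u ∈ A, ∑ v ∈ C, (lam - (mu u v : ℝ)) ≤ 0 := by linarith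
    have he : ∑ u ∈ A, ∑ v ∈ C, (lam - (mu u v : ℝ)) =
        lam * (A.card : ℝ) * (C.card : ℝ) - ∑ u ∈ A, ∑ v ∈ C, (mu u v : ℝ) := by
      simp only [sum_sub_distrib, sum_const, nsmul_eq_mul]
      ring
    linarith
  · intro a b hab
    have hQ := hP (fun v => if P v = b then a else P v)
    have hpt : ∀ u v : V,
        (if (if P u = b then a else P u) ≠ (if P v = b then a else P v) then
          lam - (mu u v : ℝ) else 0) =
        (if P u ≠ P v then lam - (mu u v : ℝ) else 0) -
        ((if u ∈ cls P a ∧ v ∈ cls P b then lam - (mu u v : ℝ) else 0) +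
          (if v ∈ cls P a ∧ u ∈ cls P b then lam - (mu u v : ℝ) else 0)) := by
      intro u v
      have e1 : ∀ x c, x ∈ cls P c ↔ P x = c := by
        intro x c
        simp [cls]
      simp only [e1]
      by_cases h1 : P u = b
      · by_cases h2 : P v = b
        · simp [h1, h2, hab.symm]
        · by_cases h3 : P v = a
          · simp [h1, h3, hab, hab.symm]
          · have n1 : a ≠ P v := fun h => h3 h.symm
            have n2 : b ≠ P v := fun h => h2 h.symm
            simp [h1, h2, h3, n1, n2, hab.symm]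
      · by_cases h2 : P v = b
        · by_cases h3 : P u = a
          · simp [h2, h3, hab, hab.symm]
          · simp [h1, h2, h3, hab.symm]
        · simp [h1, h2]
    have hsum : Phi (fun u v : V => lam - (mu u v : ℝ)) (fun v => if P v = b then a else P v) =
        Phi (fun u v : V => lam - (mu u v : ℝ)) P -
        (∑ u ∈ cls P a, ∑ v ∈ cls P b, (lam - (mu u v : ℝ)) +
          ∑ u ∈ cls P a, ∑ v ∈ cls P b, (lam - (mu u v : ℝ))) := by
      unfold Phi
      rw [sum_congr rfl fun u _ => sum_congr rfl fun v _ => hpt u v]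
      rw [sum_congr rfl fun u _ => sum_sub_distrib _ _, sum_sub_distrib,
        sum_congr rfl fun u _ => sum_add_distrib (s := univ)
          (f := fun v => if u ∈ cls P a ∧ v ∈ cls P b then lam - (mu u v : ℝ) else 0)
          (g := fun v => if v ∈ cls P a ∧ u ∈ cls P b then lam - (mu u v : ℝ) else 0),
        sum_add_distrib]
      have s1 := sum_swap (cls P a) (cls P b) (fun u v : V => lam - (mu u v : ℝ)) hw
      have s2 := sum_ite2 (cls P a) (cls P b) (fun u v : V => lam - (mu u v : ℝ))
      rw [s1, s2]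
    rw [hsum] at hQ
    have hge : 0 ≤ ∑ u ∈ cls P a, ∑ v ∈ cls P b, (lam - (mu u v : ℝ)) := by linarith
    have he : ∑ u ∈ cls P a, ∑ v ∈ cls P b, (lam - (mu u v : ℝ)) =
        lam * ((cls P a).card : ℝ) * ((cls P b).card : ℝ) -
          ∑ u ∈ cls P a, ∑ v ∈ cls P b, (mu u v : ℝ) := by
      simp only [sum_sub_distrib, sum_const, nsmul_eq_mul]
      ring
    linarith

end Vale.P061.CLUS
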