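import Mathlib

/-! P061: thin spanning trees in dense multigraphs.  A finite loopless multigraph on `V` is given by
its symmetric multiplicity function `mu`. -/

namespace Vale.P061

universe u

open Finset

/-- The number of edge copies of the multigraph `mu` with exactly one endpoint in `S`. -/
def cut {V : Type u} [Fintype V] [DecidableEq V] (mu : V → V → ℕ) (S : Finset V) : ℕ :=
  ∑ u ∈ S, ∑ v ∈ Sᶜ, mu u v

open Classical in
/-- The number of edges of the simple graph `T` with exactly one endpoint in `S`. -/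
noncomputable def treeCut {V : Type u} [Fintype V] (T : SimpleGraph V) (S : Finset V) : ℕ :=
  ∑ u ∈ S, ∑ v ∈ Sᶜ, if T.Adj u v then 1 else 0

/-- A loopless multigraph given by its multiplicity function. -/
structure IsMulti {V : Type u} (mu : V → V → ℕ) : Prop where
  symm : ∀ u v, mu u v = mu v u
  loopless : ∀ v, mu v v = 0

/-- `k`-edge-connectedness: every cut of a nonempty proper vertex set has at least `k` edge
copies. -/
def EdgeConn {V : Type u} [Fintype V] [DecidableEq V] (mu : V → V → ℕ) (k : ℕ) : Prop :=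
  ∀ S : Finset V, S.Nonempty → S ≠ univ → k ≤ cut mu S

/-- The simple graph underlying the multigraph. -/
def under {V : Type u} {mu : V → V → ℕ} (h : IsMulti mu) : SimpleGraph V where
  Adj u v := 1 ≤ mu u v
  symm := ⟨fun u v huv => by rw [h.symm v u]; exact huv⟩
  loopless := ⟨fun v hv => by have := h.loopless v; omega⟩

/-- A spanning tree of the multigraph (it uses at most one copy of each edge). -/
def IsSpanTree {V : Type u} (mu : V → V → ℕ) (T : SimpleGraph V) : Prop :=
  T.IsTree ∧ ∀ u v, T.Adj u v → 1 ≤ mu u v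

/-- `alpha`-thinness of `T` in the multigraph `mu`. -/
def Thin {V : Type u} [Fintype V] [DecidableEq V] (mu : V → V → ℕ) (T : SimpleGraph V)
    (alpha : ℝ) : Prop :=
  ∀ S : Finset V, S.Nonempty → S ≠ univ → (treeCut T S : ℝ) ≤ alpha * (cut mu S : ℝ)

/-- The class of label `a` of a labelling `P`. -/
def cls {V : Type u} [Fintype V] [DecidableEq V] (P : V → Option V) (a : Option V) : Finset V :=
  univ.filter (fun v => P v = a)

/-! ### module statements -/

/-- CLUS: the optimal labelling (maximise the sum over cross pairs of `lam - mu u v`). -/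
def StmtCLUS : Prop :=
  ∀ (V : Type u) [Fintype V] [DecidableEq V] (mu : V → V → ℕ), (∀ u v, mu u v = mu v u) →
    ∀ lam : ℝ, ∃ P : V → Option V,
      (∀ a : Option V, ∀ A ⊆ cls P a,
        lam * (A.card : ℝ) * ((cls P a \ A).card : ℝ) ≤
          ∑ u ∈ A, ∑ v ∈ cls P a \ A, (mu u v : ℝ)) ∧
      (∀ a b : Option V, a ≠ b →
        ∑ u ∈ cls P a, ∑ v ∈ cls P b, (mu u v : ℝ) ≤
          lam * ((cls P a).card : ℝ) * ((cls P b).card : ℝ))

/-- FOREST: a maximal forest of maximum degree at most `D` is connected inside every class. -/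
def StmtFOREST : Prop :=
  ∀ (V : Type u) [Fintype V] [DecidableEq V] (P : V → Option V) (G : SimpleGraph V) (D : ℕ),
    2 ≤ D → (∀ u v, G.Adj u v → P u = P v) →
    (∀ a : Option V, ∀ A B S : Finset V, A ∪ B ∪ S = cls P a → Disjoint A B → Disjoint A S →
      Disjoint B S → A.Nonempty → B.Nonempty → S.card * D < 2 * (cls P a).card →
      ∃ u ∈ A, ∃ v ∈ B, G.Adj u v) →
    ∃ F : SimpleGraph V, F ≤ G ∧ F.IsAcyclic ∧ (∀ v, (F.neighborSet v).ncard ≤ D) ∧
      ∀ u v, P u = P v → F.Reachable u v

/-- EXT: extension of a forest, connected inside every class, to a spanning tree. -/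
def StmtEXT : Prop :=
  ∀ (V : Type u) [Fintype V] [DecidableEq V] (P : V → Option V) (G F : SimpleGraph V),
    G.Connected → F ≤ G → F.IsAcyclic → (∀ u v, P u = P v → F.Reachable u v) →
    ∃ T : SimpleGraph V, T.IsTree ∧ F ≤ T ∧ T ≤ G ∧
      ∀ S : Finset V, treeCut T S ≤ treeCut F S + (univ.image P).card

/-- LOW: every spanning tree of the complete graph `K_(k+1)` has thinness at least
`4 k / (k+1)^2`. -/
def StmtLOW : Prop :=
  ∀ (k : ℕ), 1 ≤ k → ∀ T : SimpleGraph (Fin (k + 1)),
    IsSpanTree (fun u v => if u = v then 0 else 1) T →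
    ∀ alpha : ℝ, Thin (fun u v => if u = v then 0 else 1) T alpha →
      4 * (k : ℝ) / ((k : ℝ) + 1) ^ 2 ≤ alpha

end Vale.P061
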