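import Vale.Agent.P061.Defs

/-! # P061, module EXT (helper3): extension of a forest to a spanning tree -/

namespace Vale.P061.EXT

universe u

open Finset SimpleGraph

variable {V : Type u} [Fintype V] [DecidableEq V]

theorem single_sum (S : Finset V) (x y : V) :
    ∑ u ∈ S, ∑ v ∈ Sᶜ, (if u = x ∧ v = y then 1 else 0) =
      if x ∈ S ∧ y ∉ S then 1 else 0 := by
  by_cases hx : x ∈ S
  · by_cases hy : y ∉ S
    · rw [if_pos ⟨hx, hy⟩]
      rw [sum_eq_single x]
      · rw [sum_eq_single y]
        · simp
        · intro b _ hb
          simp [hb]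
        · intro hh
          exact absurd (mem_compl.2 hy) hh
      · intro b _ hb
        refine sum_eq_zero fun v _ => ?_
        simp [hb]
      · intro hh
        exact absurd hx hh
    · rw [if_neg (fun hh => hy hh.2)]
      refine sum_eq_zero fun u _ => sum_eq_zero fun v hv => ?_
      rw [if_neg]
      intro hh
      rw [hh.2] at hv
      exact hy (mem_compl.1 hv)
  · rw [if_neg (fun hh => hx hh.1)]
    refine sum_eq_zero fun u hu => sum_eq_zero fun v _ => ?_
    rw [if_neg]
    intro hh
    rw [hh.1] at hu
    exact hx hu

theorem treeCut_edge {W : Type u} [Fintype W] (F : SimpleGraph W) (x y : W) (S : Finset W) :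
    treeCut (F ⊔ edge x y) S ≤ treeCut F S + 1 := by
  classical
  unfold treeCut
  have h1 : ∀ u v : W, (if (F ⊔ edge x y).Adj u v then 1 else 0) ≤
      (if F.Adj u v then 1 else 0) + ((if u = x ∧ v = y then 1 else 0) +
        (if u = y ∧ v = x then 1 else 0)) := by
    intro u v
    by_cases h : (F ⊔ edge x y).Adj u v
    · rw [if_pos h]
      rw [sup_adj, edge_adj] at h
      rcases h with h | h
      · rw [if_pos h]
        omega
      · rcases h.1 with h2 | h2
        · rw [if_pos (show u = x ∧ v = y from h2)]
          omega
        · rw [if_pos (show u = y ∧ v = x from h2)]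
          omega
    · rw [if_neg h]
      exact Nat.zero_le _
  calc _ ≤ ∑ u ∈ S, ∑ v ∈ Sᶜ, ((if F.Adj u v then 1 else 0) + ((if u = x ∧ v = y then 1 else 0) +
        (if u = y ∧ v = x then 1 else 0))) := by
        refine sum_le_sum fun u _ => sum_le_sum fun v _ => ?_
        convert! h1 u v
    _ = ∑ u ∈ S, ∑ v ∈ Sᶜ, (if F.Adj u v then 1 else 0) +
        ((if x ∈ S ∧ y ∉ S then 1 else 0) + (if y ∈ S ∧ x ∉ S then 1 else 0)) := by
        simp only [sum_add_distrib]
        rw [single_sum, single_sum]
    _ ≤ ∑ u ∈ S, ∑ v ∈ Sᶜ, (if F.Adj u v then 1 else 0) + 1 := by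
        refine Nat.add_le_add_left ?_ _
        by_cases hx : x ∈ S
        · by_cases hy : y ∈ S
          · simp [hx, hy]
          · simp [hx, hy]
        · by_cases hy : y ∈ S
          · simp [hx, hy]
          · simp [hx, hy]

theorem ext_aux (G : SimpleGraph V) (hG : G.Connected) : ∀ (N : ℕ) (P : V → Option V)
    (F : SimpleGraph V), (univ.image P).card ≤ N → F ≤ G → F.IsAcyclic →
    (∀ u v, P u = P v → F.Reachable u v) →
    ∃ T : SimpleGraph V, T.IsTree ∧ F ≤ T ∧ T ≤ G ∧
      ∀ S : Finset V, treeCut T S ≤ treeCut F S + N := by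
  intro N
  induction N with
  | zero =>
    intro P F hN
    exfalso
    obtain ⟨v⟩ := hG.nonempty
    have : P v ∈ univ.image P := mem_image_of_mem P (mem_univ v)
    have := card_pos.2 ⟨_, this⟩
    omega
  | succ N ih =>
    intro P F hN hFG hF hP
    by_cases hcon : F.Connected
    · exact ⟨F, ⟨hcon, hF⟩, le_refl _, hFG, fun S => Nat.le_add_right _ _⟩
    -- an edge of `G` between two components of `F`
    have hex : ∃ x y, G.Adj x y ∧ ¬ F.Reachable x y := by
      by_contra hno
      push Not at hno
      apply hcon
      have hpre : F.Preconnected := by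
        intro u v
        obtain ⟨w⟩ := hG.preconnected u v
        induction w with
        | nil => exact Reachable.refl _
        | cons h _ ih => exact (hno _ _ h).trans ih
      exact (connected_iff F).2 ⟨hpre, hG.nonempty⟩
    obtain ⟨x, y, hxy, hnr⟩ := hex
    set F' := F ⊔ edge x y with hF'
    set P' : V → Option V := fun v => if P v = P y then P x else P v with hP'
    have hPxy : P x ≠ P y := fun h => hnr (hP x y h)
    have hne : x ≠ y := hxy.ne
    have hr : F'.Reachable x y := by
      have : F'.Adj x y := by
        rw [hF', sup_adj, edge_adj]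
        exact Or.inr ⟨Or.inl ⟨rfl, rfl⟩, hne⟩
      exact this.reachable
    have hle : F ≤ F' := le_sup_left
    have hmono : ∀ u v, F.Reachable u v → F'.Reachable u v := fun u v h => h.mono hle
    have hP'r : ∀ u v, P' u = P' v → F'.Reachable u v := by
      intro u v huv
      simp only [hP'] at huv
      by_cases hu : P u = P y
      · by_cases hv : P v = P y
        · exact hmono _ _ (hP u v (hu.trans hv.symm))
        · rw [if_pos hu, if_neg hv] at huv
          exact (hmono _ _ (hP u y hu)).trans (hr.symm.trans (hmono _ _ (hP x v huv)))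
      · by_cases hv : P v = P y
        · rw [if_neg hu, if_pos hv] at huv
          exact (hmono _ _ (hP u x huv)).trans (hr.trans (hmono _ _ (hP y v hv.symm)))
        · rw [if_neg hu, if_neg hv] at huv
          exact hmono _ _ (hP u v huv)
    have hcard : (univ.image P').card ≤ N := by
      have h1 : univ.image P' ⊆ (univ.image P).erase (P y) := by
        intro a ha
        obtain ⟨v, _, rfl⟩ := mem_image.1 ha
        rw [mem_erase]
        simp only [hP']
        by_cases hv : P v = P y
        · rw [if_pos hv]
          exact ⟨hPxy, mem_image_of_mem P (mem_univ x)⟩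
        · rw [if_neg hv]
          exact ⟨hv, mem_image_of_mem P (mem_univ v)⟩
      have h2 := card_le_card h1
      rw [card_erase_of_mem (mem_image_of_mem P (mem_univ y))] at h2
      omega
    have hF'G : F' ≤ G := by
      rw [hF']
      refine sup_le hFG ?_
      intro u v huv
      rw [edge_adj] at huv
      rcases huv.1 with h | h
      · rw [h.1, h.2]
        exact hxy
      · rw [h.1, h.2]
        exact hxy.symm
    have hF'a : F'.IsAcyclic := hF.sup_edge_of_not_reachable hnr
    obtain ⟨T, hT1, hT2, hT3, hT4⟩ := ih P' F' hcard hF'G hF'a hP'r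
    refine ⟨T, hT1, hle.trans hT2, hT3, fun S => ?_⟩
    have h5 := hT4 S
    have h6 : treeCut F' S ≤ treeCut F S + 1 := treeCut_edge F x y S
    omega

theorem thm : StmtEXT.{u} := by
  intro V _ _ P G F hG hFG hF hP
  exact ext_aux G hG _ P F le_rfl hFG hF hP

end Vale.P061.EXT
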