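import Vale.Agent.P061.Defs

/-! P061: the final count. -/

namespace Vale.P061.FIN

universe u

open Finset

section basic

variable {V : Type u} [Fintype V] [DecidableEq V]

lemma mem_cls {P : V → Option V} {a : Option V} {v : V} : v ∈ cls P a ↔ P v = a := by
  simp [cls]

lemma sum_by_cls (P : V → Option V) (A : Finset V) (f : V → ℝ) :
    ∑ v ∈ A, f v = ∑ a : Option V, ∑ v ∈ A ∩ cls P a, f v := by
  classical
  have h1 : ∀ a : Option V, ∑ v ∈ A ∩ cls P a, f v = ∑ v ∈ A, if P v = a then f v else 0 := by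
    intro a
    rw [← Finset.sum_filter]
    congr 1
    ext v
    simp [cls]
  simp_rw [h1]
  rw [Finset.sum_comm]
  apply Finset.sum_congr rfl
  intro v _
  simp

lemma card_by_cls (P : V → Option V) :
    ∑ a : Option V, ((cls P a).card : ℝ) = (Fintype.card V : ℝ) := by
  have h := sum_by_cls P (univ : Finset V) (fun _ => (1 : ℝ))
  simp only [Finset.sum_const, nsmul_eq_mul, mul_one, Finset.univ_inter] at h
  rw [← h]
  simp

end basic

section main

variable {V : Type u} [Fintype V] [DecidableEq V] {mu : V → V → ℕ} {k : ℕ}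

/-- every vertex has degree at least `k`. -/
lemma deg_ge (hmu : IsMulti mu) (hV : 2 ≤ Fintype.card V) (hc : EdgeConn mu k) (v : V) :
    (k : ℝ) ≤ ∑ w, (mu v w : ℝ) := by
  have h1 : ({v} : Finset V) ≠ univ := by
    intro h
    have := congrArg Finset.card h
    simp at this
    omega
  have h2 := hc {v} (by simp) h1
  have h3 : cut mu {v} = ∑ w, mu v w := by
    unfold cut
    rw [Finset.sum_singleton]
    rw [← Finset.sum_compl_add_sum ({v} : Finset V)]
    simp [hmu.loopless v]
  rw [h3] at h2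
  exact_mod_cast h2

lemma conn (hmu : IsMulti mu) (hV : 2 ≤ Fintype.card V) (hk : 1 ≤ k) (hc : EdgeConn mu k) :
    (under hmu).Connected := by
  classical
  have hne : Nonempty V := by
    rw [← Fintype.card_pos_iff]; omega
  rw [SimpleGraph.connected_iff]
  refine ⟨?_, hne⟩
  intro u v
  by_contra hnot
  let S : Finset V := univ.filter (fun w => (under hmu).Reachable u w)
  have hS1 : S.Nonempty := ⟨u, by simp [S]⟩
  have hS2 : S ≠ univ := by
    intro h
    have : v ∈ S := by rw [h]; simp
    simp [S] at this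
    exact hnot this
  have h0 : cut mu S = 0 := by
    unfold cut
    apply Finset.sum_eq_zero
    intro x hx
    apply Finset.sum_eq_zero
    intro y hy
    by_contra hxy
    have hadj : (under hmu).Adj x y := by
      change 1 ≤ mu x y
      omega
    have hx' : (under hmu).Reachable u x := by simpa [S] using hx
    have hy' : ¬ (under hmu).Reachable u y := by simpa [S] using hy
    exact hy' (hx'.trans hadj.reachable)
  have := hc S hS1 hS2
  omega


/-- Standing facts: `lam = k/(2n)`, `M = k/(delta n)`. -/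
structure Par (mu : V → V → ℕ) (k : ℕ) (delta n lam M : ℝ) : Prop where
  hd : 0 < delta
  hn : n = (Fintype.card V : ℝ)
  hn2 : (2 : ℝ) ≤ n
  hk0 : (0 : ℝ) < k
  hlam0 : 0 < lam
  hM0 : 0 < M
  hMle : ∀ u v, (mu u v : ℝ) ≤ M
  hMlam : M * delta = 2 * lam
  hlamn : lam * n = (k : ℝ) / 2
  hMn : M * n * delta = k

lemma delta_lt_one {delta n lam M : ℝ} (h0 : Par mu k delta n lam M) (hmu : IsMulti mu)
    (hV : 2 ≤ Fintype.card V) (hc : EdgeConn mu k) : delta < 1 := by
  classical
  obtain ⟨hd, hn, hn2, hk0, hlam0, hM0, hMle, hMlam, hlamn, hMn⟩ := h0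
  have hn0 : 0 < n := by linarith
  have hne : Nonempty V := by rw [← Fintype.card_pos_iff]; omega
  obtain ⟨v⟩ := hne
  have h := deg_ge hmu hV hc v
  have h' : ∑ w, (mu v w : ℝ) ≤ ((Fintype.card V : ℝ) - 1) * M := by
    rw [← Finset.sum_erase_add univ _ (Finset.mem_univ v)]
    have : ∑ w ∈ univ.erase v, (mu v w : ℝ) ≤ ((univ.erase v).card : ℝ) * M := by
      calc ∑ w ∈ univ.erase v, (mu v w : ℝ) ≤ ∑ w ∈ univ.erase v, M :=
            Finset.sum_le_sum (fun w _ => hMle v w)
        _ = ((univ.erase v).card : ℝ) * M := by simp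
    have hcard : ((univ.erase v).card : ℝ) = (Fintype.card V : ℝ) - 1 := by
      rw [Finset.card_erase_of_mem (Finset.mem_univ v), Finset.card_univ,
        Nat.cast_sub (by omega)]
      simp
    rw [hcard] at this
    simpa [hmu.loopless v] using this
  by_contra hcon
  push Not at hcon
  have h5 : (k : ℝ) ≤ (n - 1) * M := by rw [hn]; exact le_trans h h'
  have h6 : M * n ≤ k := by
    calc M * n ≤ M * n * delta := by
          nlinarith [mul_pos hM0 hn0]
      _ = k := hMn
  nlinarith

lemma size_ge {delta n lam M : ℝ} (h0 : Par mu k delta n lam M) (hmu : IsMulti mu)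
    (hV : 2 ≤ Fintype.card V) (hc : EdgeConn mu k) (P : V → Option V)
    (hP2 : ∀ a b : Option V, a ≠ b →
        ∑ u ∈ cls P a, ∑ v ∈ cls P b, (mu u v : ℝ) ≤
          lam * ((cls P a).card : ℝ) * ((cls P b).card : ℝ)) (a : Option V)
    (hane : (cls P a).Nonempty) : delta * n / 2 ≤ ((cls P a).card : ℝ) := by
  classical
  obtain ⟨hd, hn, hn2, hk0, hlam0, hM0, hMle, hMlam, hlamn, hMn⟩ := h0
  have hn0 : 0 < n := by linarith
  have hca : (0 : ℝ) < ((cls P a).card : ℝ) := by exact_mod_cast hane.card_pos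
  have e1 : (k : ℝ) * ((cls P a).card : ℝ) ≤ ∑ u ∈ cls P a, ∑ w, (mu u w : ℝ) := by
    calc (k : ℝ) * ((cls P a).card : ℝ) = ∑ u ∈ cls P a, (k : ℝ) := by
          simp [mul_comm]
      _ ≤ _ := Finset.sum_le_sum (fun u _ => deg_ge hmu hV hc u)
  have e2 : ∑ u ∈ cls P a, ∑ w, (mu u w : ℝ) =
      ∑ b : Option V, ∑ u ∈ cls P a, ∑ w ∈ cls P b, (mu u w : ℝ) := by
    symm
    rw [Finset.sum_comm]
    apply Finset.sum_congr rfl
    intro u _
    have := sum_by_cls P (univ : Finset V) (fun w => (mu u w : ℝ))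
    simpa using this.symm
  have e3 : ∑ b : Option V, ∑ u ∈ cls P a, ∑ w ∈ cls P b, (mu u w : ℝ) ≤
      M * ((cls P a).card : ℝ) ^ 2 + lam * ((cls P a).card : ℝ) * n := by
    rw [← Finset.sum_erase_add univ _ (Finset.mem_univ a)]
    have f1 : ∑ u ∈ cls P a, ∑ w ∈ cls P a, (mu u w : ℝ) ≤ M * ((cls P a).card : ℝ) ^ 2 := by
      calc ∑ u ∈ cls P a, ∑ w ∈ cls P a, (mu u w : ℝ)
          ≤ ∑ u ∈ cls P a, ∑ w ∈ cls P a, M :=
            Finset.sum_le_sum (fun u _ => Finset.sum_le_sum (fun w _ => hMle u w))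
        _ = M * ((cls P a).card : ℝ) ^ 2 := by simp; ring
    have f2 : ∑ b ∈ univ.erase a, ∑ u ∈ cls P a, ∑ w ∈ cls P b, (mu u w : ℝ) ≤
        lam * ((cls P a).card : ℝ) * n := by
      calc ∑ b ∈ univ.erase a, ∑ u ∈ cls P a, ∑ w ∈ cls P b, (mu u w : ℝ)
          ≤ ∑ b ∈ univ.erase a, lam * ((cls P a).card : ℝ) * ((cls P b).card : ℝ) := by
            apply Finset.sum_le_sum
            intro b hb
            exact hP2 a b (Ne.symm (Finset.ne_of_mem_erase hb))
        _ = lam * ((cls P a).card : ℝ) * ∑ b ∈ univ.erase a, ((cls P b).card : ℝ) := by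
            rw [Finset.mul_sum]
        _ ≤ lam * ((cls P a).card : ℝ) * n := by
            apply mul_le_mul_of_nonneg_left _ (by positivity)
            calc ∑ b ∈ univ.erase a, ((cls P b).card : ℝ)
                ≤ ∑ b : Option V, ((cls P b).card : ℝ) :=
                  Finset.sum_le_sum_of_subset_of_nonneg (Finset.erase_subset _ _)
                    (fun _ _ _ => by positivity)
              _ = n := by rw [hn]; exact card_by_cls P
    linarith
  rw [e2] at e1
  have e4 := le_trans e1 e3
  have e5 : (k : ℝ) ≤ M * ((cls P a).card : ℝ) + lam * n := by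
    have : (k : ℝ) * ((cls P a).card : ℝ) ≤
        (M * ((cls P a).card : ℝ) + lam * n) * ((cls P a).card : ℝ) := by nlinarith
    exact le_of_mul_le_mul_right this hca
  rw [hlamn] at e5
  have e6 : (k : ℝ) / 2 ≤ M * ((cls P a).card : ℝ) := by linarith
  have e7 : M * (delta * n / 2) ≤ M * ((cls P a).card : ℝ) := by
    calc M * (delta * n / 2) = (M * n * delta) / 2 := by ring
      _ = (k : ℝ) / 2 := by rw [hMn]
      _ ≤ _ := e6
  exact le_of_mul_le_mul_left e7 hM0

lemma rc {delta n lam M : ℝ} (h0 : Par mu k delta n lam M) (hmu : IsMulti mu)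
    (P : V → Option V)
    (hP1 : ∀ a : Option V, ∀ A ⊆ cls P a,
        lam * (A.card : ℝ) * ((cls P a \ A).card : ℝ) ≤
          ∑ u ∈ A, ∑ v ∈ cls P a \ A, (mu u v : ℝ)) (D : ℕ)
    (hDge : 8 / delta ≤ (D : ℝ)) :
    ∀ a : Option V, ∀ A B S : Finset V, A ∪ B ∪ S = cls P a → Disjoint A B →
      Disjoint A S → Disjoint B S → A.Nonempty → B.Nonempty →
      S.card * D < 2 * (cls P a).card → ∃ u ∈ A, ∃ v ∈ B, P u = P v ∧ 1 ≤ mu u v := by
  classical
  obtain ⟨hd, hn, hn2, hk0, hlam0, hM0, hMle, hMlam, hlamn, hMn⟩ := h0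
  have hn0 : 0 < n := by linarith
  intro a A B S hABS hAB hAS hBS hA hB hS
  by_contra hcon
  push Not at hcon
  have hPA : ∀ u ∈ A, P u = a := fun u hu => mem_cls.1 (by rw [← hABS]; simp [hu])
  have hPB : ∀ u ∈ B, P u = a := fun u hu => mem_cls.1 (by rw [← hABS]; simp [hu])
  have hz : ∀ u ∈ A, ∀ v ∈ B, mu u v = 0 := by
    intro u hu v hv
    have h' := hcon u hu v hv (by rw [hPA u hu, hPB v hv])
    omega
  have hcA : (0 : ℝ) < A.card := by exact_mod_cast hA.card_pos
  have hcB : (0 : ℝ) < B.card := by exact_mod_cast hB.card_pos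
  have key : ∀ X Y : Finset V, X ∪ Y ∪ S = cls P a → Disjoint X Y → Disjoint X S →
      Disjoint Y S → (0 : ℝ) < X.card → (∀ u ∈ X, ∀ v ∈ Y, mu u v = 0) →
      lam * ((Y.card : ℝ) + S.card) ≤ M * S.card := by
    intro X Y hXY d1 d2 d3 hX hzero
    have hsd : cls P a \ X = Y ∪ S := by
      rw [← hXY]
      ext v
      simp only [Finset.mem_sdiff, Finset.mem_union]
      constructor
      · rintro ⟨(h | h) | h, hn⟩
        · exact absurd h hn
        · exact Or.inl h
        · exact Or.inr h
      · rintro (h | h)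
        · exact ⟨Or.inl (Or.inr h), fun h' => (Finset.disjoint_left.1 d1 h' h)⟩
        · exact ⟨Or.inr h, fun h' => (Finset.disjoint_left.1 d2 h' h)⟩
    have hsub : X ⊆ cls P a := by
      rw [← hXY]
      intro v hv
      simp [hv]
    have h := hP1 a X hsub
    rw [hsd, Finset.card_union_of_disjoint d3] at h
    have hsum : ∑ u ∈ X, ∑ v ∈ Y ∪ S, (mu u v : ℝ) ≤ (X.card : ℝ) * (M * S.card) := by
      calc ∑ u ∈ X, ∑ v ∈ Y ∪ S, (mu u v : ℝ)
          ≤ ∑ u ∈ X, M * S.card := by
            apply Finset.sum_le_sum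
            intro u hu
            rw [Finset.sum_union d3]
            have : ∑ v ∈ Y, (mu u v : ℝ) = 0 := by
              apply Finset.sum_eq_zero
              intro v hv
              rw [hzero u hu v hv]; simp
            rw [this, zero_add]
            calc ∑ v ∈ S, (mu u v : ℝ) ≤ ∑ v ∈ S, M :=
                  Finset.sum_le_sum (fun v _ => hMle u v)
              _ = M * S.card := by simp [mul_comm]
        _ = (X.card : ℝ) * (M * S.card) := by simp
    push_cast at h
    have h' : (X.card : ℝ) * (lam * ((Y.card : ℝ) + S.card)) ≤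
        (X.card : ℝ) * (M * S.card) := by
      calc (X.card : ℝ) * (lam * ((Y.card : ℝ) + S.card))
          = lam * (X.card : ℝ) * ((Y.card : ℝ) + S.card) := by ring
        _ ≤ _ := le_trans h hsum
    exact le_of_mul_le_mul_left h' hX
  have k1 := key A B hABS hAB hAS hBS hcA hz
  have k2 := key B A (by rw [Finset.union_comm B A]; exact hABS) hAB.symm hBS hAS hcB
    (fun u hu v hv => by rw [hmu.symm]; exact hz v hv u hu)
  have hcard : ((cls P a).card : ℝ) = (A.card : ℝ) + B.card + S.card := by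
    rw [← hABS, Finset.card_union_of_disjoint (by
      rw [Finset.disjoint_union_left]; exact ⟨hAS, hBS⟩),
      Finset.card_union_of_disjoint hAB]
    push_cast; ring
  have hS' : (S.card : ℝ) * D < 2 * ((cls P a).card : ℝ) := by exact_mod_cast hS
  have hSc : (0 : ℝ) ≤ S.card := by positivity
  have k3 : lam * ((cls P a).card : ℝ) ≤ 2 * M * S.card := by
    rw [hcard]; nlinarith
  -- lam m D ≤ 2 M |S| D < 4 M m
  have hm0 : (0 : ℝ) < ((cls P a).card : ℝ) := by rw [hcard]; linarith
  have k4 : lam * ((cls P a).card : ℝ) * D < 4 * M * ((cls P a).card : ℝ) := by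
    calc lam * ((cls P a).card : ℝ) * D ≤ 2 * M * S.card * D :=
          mul_le_mul_of_nonneg_right k3 (by positivity)
      _ = 2 * M * (S.card * D) := by ring
      _ < 2 * M * (2 * ((cls P a).card : ℝ)) := by
          apply mul_lt_mul_of_pos_left hS' (by positivity)
      _ = _ := by ring
  have k5 : lam * D < 4 * M := by
    have : lam * D * ((cls P a).card : ℝ) < 4 * M * ((cls P a).card : ℝ) := by
      calc lam * D * ((cls P a).card : ℝ) = lam * ((cls P a).card : ℝ) * D := by ring
        _ < _ := k4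
    exact lt_of_mul_lt_mul_right this hm0.le
  have k6 : 8 ≤ (D : ℝ) * delta := by
    rw [div_le_iff₀ hd] at hDge; linarith
  have k7 : lam * D * delta < 4 * M * delta := mul_lt_mul_of_pos_right k5 hd
  have k8 : 4 * M * delta = 8 * lam := by linarith
  rw [k8] at k7
  have k9 : lam * 8 ≤ lam * (D * delta) := mul_le_mul_of_nonneg_left k6 hlam0.le
  linarith

lemma treeCut_cast (T : SimpleGraph V) (S : Finset V) [DecidableRel T.Adj] :
    (treeCut T S : ℝ) = ∑ u ∈ S, ∑ v ∈ Sᶜ, (if T.Adj u v then (1 : ℝ) else 0) := by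
  unfold treeCut
  push_cast
  refine Finset.sum_congr rfl (fun u _ => ?_)
  refine Finset.sum_congr (by ext v; simp) (fun v _ => ?_)
  split_ifs <;> rfl

lemma forest_cut {delta n lam M : ℝ} (h0 : Par mu k delta n lam M)
    (P : V → Option V)
    (hP1 : ∀ a : Option V, ∀ A ⊆ cls P a,
        lam * (A.card : ℝ) * ((cls P a \ A).card : ℝ) ≤
          ∑ u ∈ A, ∑ v ∈ cls P a \ A, (mu u v : ℝ)) (D : ℕ)
    (hsize : ∀ a, (cls P a).Nonempty → delta * n / 2 ≤ ((cls P a).card : ℝ))
    (F : SimpleGraph V) (hFG : ∀ u v, F.Adj u v → P u = P v)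
    (hFdeg : ∀ v, (F.neighborSet v).ncard ≤ D) (S : Finset V) :
    (treeCut F S : ℝ) ≤ (8 * D / (delta * k)) * cut mu S := by
  classical
  obtain ⟨hd, hn, hn2, hk0, hlam0, hM0, hMle, hMlam, hlamn, hMn⟩ := h0
  have hn0 : 0 < n := by linarith
  let e : Option V → ℝ := fun a => ∑ u ∈ S ∩ cls P a, ∑ v ∈ Sᶜ ∩ cls P a, (mu u v : ℝ)
  let t : Option V → ℝ := fun a => ∑ u ∈ S ∩ cls P a, ∑ v ∈ Sᶜ ∩ cls P a,
    (if F.Adj u v then (1 : ℝ) else 0)
  have htF : (treeCut F S : ℝ) = ∑ a : Option V, t a := by
    rw [treeCut_cast, sum_by_cls P S]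
    apply Finset.sum_congr rfl
    intro a _
    apply Finset.sum_congr rfl
    intro u hu
    have hua : P u = a := mem_cls.1 (Finset.mem_inter.1 hu).2
    have hsub := Finset.sum_subset (Finset.inter_subset_left (s₁ := Sᶜ) (s₂ := cls P a))
      (f := fun v => if F.Adj u v then (1 : ℝ) else 0) (by
        intro v hv hv'
        apply if_neg
        intro hadj
        apply hv'
        rw [Finset.mem_inter]
        refine ⟨hv, mem_cls.2 ?_⟩
        rw [← hFG _ _ hadj, hua])
    exact hsub.symm
  have hcutE : ∑ a : Option V, e a ≤ (cut mu S : ℝ) := by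
    unfold cut
    push_cast
    rw [sum_by_cls P S]
    apply Finset.sum_le_sum
    intro a _
    apply Finset.sum_le_sum
    intro u _
    apply Finset.sum_le_sum_of_subset_of_nonneg Finset.inter_subset_left
    intro v _ _
    positivity
  have hdeg : ∀ u : V, ∀ X : Finset V, ∑ v ∈ X, (if F.Adj u v then (1 : ℝ) else 0) ≤ D := by
    intro u X
    have : ∑ v ∈ X, (if F.Adj u v then (1 : ℝ) else 0) =
        ((X.filter (fun v => F.Adj u v)).card : ℝ) := by
      rw [Finset.card_filter]; push_cast; rfl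
    rw [this]
    have h' := hFdeg u
    have : (X.filter (fun v => F.Adj u v)).card ≤ (F.neighborSet u).ncard := by
      rw [← Set.ncard_coe_finset]
      apply Set.ncard_le_ncard _ (Set.toFinite _)
      intro v hv
      simp at hv
      exact hv.2
    exact_mod_cast le_trans this h'
  have hte : ∀ a, t a ≤ (8 * D / (delta * k)) * e a := by
    intro a
    by_cases hne : (cls P a).Nonempty
    · have hsz := hsize a hne
      set x : ℝ := ((S ∩ cls P a).card : ℝ) with hx
      set y : ℝ := ((Sᶜ ∩ cls P a).card : ℝ) with hy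
      have hx0 : 0 ≤ x := by positivity
      have hy0 : 0 ≤ y := by positivity
      have hxy : ((cls P a).card : ℝ) = x + y := by
        have : cls P a = (S ∩ cls P a) ∪ (Sᶜ ∩ cls P a) := by
          ext v
          simp only [Finset.mem_union, Finset.mem_inter, Finset.mem_compl]
          tauto
        rw [hx, hy, ← Nat.cast_add, ← Finset.card_union_of_disjoint, ← this]
        rw [Finset.disjoint_left]
        intro v hv hv'
        simp at hv hv'
        exact hv'.1 hv.1
      have t1 : t a ≤ D * x := by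
        calc t a ≤ ∑ u ∈ S ∩ cls P a, (D : ℝ) := Finset.sum_le_sum (fun u _ => hdeg u _)
          _ = D * x := by simp [hx, mul_comm]
      have t2 : t a ≤ D * y := by
        have : t a = ∑ v ∈ Sᶜ ∩ cls P a, ∑ u ∈ S ∩ cls P a,
            (if F.Adj v u then (1 : ℝ) else 0) := by
          rw [Finset.sum_comm]
          apply Finset.sum_congr rfl
          intro u _
          apply Finset.sum_congr rfl
          intro v _
          simp only [F.adj_comm]
        rw [this]
        calc _ ≤ ∑ v ∈ Sᶜ ∩ cls P a, (D : ℝ) := Finset.sum_le_sum (fun u _ => hdeg u _)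
          _ = D * y := by simp [hy, mul_comm]
      have t0 : 0 ≤ t a := by
        apply Finset.sum_nonneg
        intro u _
        apply Finset.sum_nonneg
        intro v _
        split_ifs <;> norm_num
      have t3 : t a * (x + y) ≤ 2 * D * (x * y) := by nlinarith
      have e1 : lam * (x * y) ≤ e a := by
        have h := hP1 a (S ∩ cls P a) Finset.inter_subset_right
        have hs : cls P a \ (S ∩ cls P a) = Sᶜ ∩ cls P a := by
          ext v
          simp only [Finset.mem_sdiff, Finset.mem_inter, Finset.mem_compl]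
          tauto
        rw [hs] at h
        calc lam * (x * y) = lam * x * y := by ring
          _ ≤ _ := h
      have t4 : t a * (delta * n / 2) ≤ 2 * D * (x * y) := by
        refine le_trans ?_ t3
        apply mul_le_mul_of_nonneg_left _ t0
        rw [← hxy]; exact hsz
      have hee : 2 * D * (x * y) * lam ≤ 2 * D * e a := by
        calc 2 * D * (x * y) * lam = 2 * D * (lam * (x * y)) := by ring
          _ ≤ 2 * D * e a := mul_le_mul_of_nonneg_left e1 (by positivity)
      have t5 : t a * (delta * n / 2) * lam ≤ 2 * D * e a :=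
        le_trans (mul_le_mul_of_nonneg_right t4 hlam0.le) hee
      have t6 : t a * (delta * n / 2) * lam = t a * (delta * k / 4) := by
        calc t a * (delta * n / 2) * lam = t a * (delta / 2) * (lam * n) := by ring
          _ = _ := by rw [hlamn]; ring
      rw [t6] at t5
      rw [div_mul_eq_mul_div, le_div_iff₀ (by positivity)]
      linarith
    · rw [Finset.not_nonempty_iff_eq_empty] at hne
      have : t a = 0 := by simp [t, hne]
      rw [this]
      have : e a = 0 := by simp [e, hne]
      rw [this]; simp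
  rw [htF]
  calc ∑ a : Option V, t a ≤ ∑ a : Option V, (8 * D / (delta * k)) * e a :=
        Finset.sum_le_sum (fun a _ => hte a)
    _ = (8 * D / (delta * k)) * ∑ a : Option V, e a := by rw [Finset.mul_sum]
    _ ≤ (8 * D / (delta * k)) * cut mu S :=
        mul_le_mul_of_nonneg_left hcutE (by positivity)

/-- the main theorem from the modules. -/
theorem main (h1 : StmtCLUS.{u}) (h2 : StmtFOREST.{u}) (h3 : StmtEXT.{u}) (delta : ℝ)
    (hd : 0 < delta) (hmu : IsMulti mu) (hV : 2 ≤ Fintype.card V) (hk : 1 ≤ k)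
    (hc : EdgeConn mu k)
    (hM : ∀ u v, delta * (Fintype.card V : ℝ) * (mu u v : ℝ) ≤ (k : ℝ)) :
    ∃ T : SimpleGraph V, IsSpanTree mu T ∧ Thin mu T (74 / delta ^ 2 / (k : ℝ)) := by
  classical
  obtain ⟨n, hn⟩ : ∃ n : ℝ, n = (Fintype.card V : ℝ) := ⟨_, rfl⟩
  rw [← hn] at hM
  have hn2 : (2 : ℝ) ≤ n := by rw [hn]; exact_mod_cast hV
  have hn0 : 0 < n := by linarith
  have hk0 : (0 : ℝ) < k := by exact_mod_cast hk
  obtain ⟨lam, hlam⟩ : ∃ lam : ℝ, lam = (k : ℝ) / (2 * n) := ⟨_, rfl⟩
  obtain ⟨M, hMdef⟩ : ∃ M : ℝ, M = (k : ℝ) / (delta * n) := ⟨_, rfl⟩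
  have h0 : Par mu k delta n lam M := by
    refine ⟨hd, hn, hn2, hk0, ?_, ?_, ?_, ?_, ?_, ?_⟩
    · rw [hlam]; positivity
    · rw [hMdef]; positivity
    · intro u v
      rw [hMdef, le_div_iff₀ (by positivity)]
      have := hM u v
      linarith
    · rw [hMdef, hlam]; field_simp
    · rw [hlam]; field_simp
    · rw [hMdef]; field_simp
  have hd1 := delta_lt_one h0 hmu hV hc
  obtain ⟨P, hP1, hP2⟩ := h1 V mu hmu.symm lam
  have hsize := size_ge h0 hmu hV hc P hP2
  -- the graph inside classes
  let G : SimpleGraph V :=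
    { Adj := fun u v => P u = P v ∧ 1 ≤ mu u v
      symm := ⟨fun u v h => ⟨h.1.symm, by rw [hmu.symm v u]; exact h.2⟩⟩
      loopless := ⟨fun v h => by have := hmu.loopless v; have := h.2; omega⟩ }
  obtain ⟨D, hD⟩ : ∃ D : ℕ, D = ⌈8 / delta⌉₊ := ⟨_, rfl⟩
  have hDge : 8 / delta ≤ (D : ℝ) := by rw [hD]; exact Nat.le_ceil _
  have hDle : (D : ℝ) ≤ 9 / delta := by
    have := Nat.ceil_lt_add_one (show 0 ≤ 8 / delta by positivity)
    rw [← hD] at this
    have h1' : 1 ≤ 1 / delta := by rw [le_div_iff₀ hd]; linarith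
    calc (D : ℝ) ≤ 8 / delta + 1 := this.le
      _ ≤ 8 / delta + 1 / delta := by linarith
      _ = 9 / delta := by ring
  have hD8 : (8 : ℝ) ≤ D := by
    refine le_trans ?_ hDge
    rw [le_div_iff₀ hd]; linarith
  have hD2 : 2 ≤ D := by
    have : (2 : ℝ) ≤ D := by linarith
    exact_mod_cast this
  obtain ⟨F, hFG, hFac, hFdeg, hFreach⟩ := h2 V P G D hD2 (fun u v h => h.1)
    (rc h0 hmu P hP1 D hDge)
  have hGle : G ≤ under hmu := fun u v h => h.2
  obtain ⟨T, hT, hFT, hTG, hcutT⟩ := h3 V P (under hmu) F (conn hmu hV hk hc)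
    (hFG.trans hGle) hFac hFreach
  refine ⟨T, ⟨hT, fun u v h => hTG h⟩, ?_⟩
  intro S hS1 hS2
  have hcutk : (k : ℝ) ≤ cut mu S := by exact_mod_cast hc S hS1 hS2
  -- number of classes
  have hq : ((univ.image P).card : ℝ) ≤ 2 / delta := by
    have h1' : ((univ.image P).card : ℝ) * (delta * n / 2) ≤ n := by
      calc ((univ.image P).card : ℝ) * (delta * n / 2)
          = ∑ a ∈ univ.image P, (delta * n / 2) := by simp
        _ ≤ ∑ a ∈ univ.image P, ((cls P a).card : ℝ) := by
            apply Finset.sum_le_sum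
            intro a ha
            apply hsize
            obtain ⟨v, _, hv⟩ := Finset.mem_image.1 ha
            exact ⟨v, mem_cls.2 hv⟩
        _ ≤ ∑ a : Option V, ((cls P a).card : ℝ) :=
            Finset.sum_le_sum_of_subset_of_nonneg (Finset.subset_univ _)
              (fun _ _ _ => by positivity)
        _ = n := by rw [hn]; exact card_by_cls P
    rw [le_div_iff₀ hd]
    have h2' : (((univ.image P).card : ℝ) * delta) * n ≤ 2 * n := by linarith
    exact le_of_mul_le_mul_right h2' hn0
  have hF0 := forest_cut h0 P hP1 D hsize F (fun u v h => (hFG h).1) hFdeg S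
  have hFcut : (treeCut F S : ℝ) ≤ (72 / delta ^ 2 / k) * cut mu S := by
    refine le_trans hF0 ?_
    apply mul_le_mul_of_nonneg_right _ (by positivity)
    rw [div_div, div_le_div_iff₀ (by positivity) (by positivity)]
    have : (D : ℝ) * delta ≤ 9 := by
      rw [le_div_iff₀ hd] at hDle; exact hDle
    have hpos : 0 ≤ 8 * delta * k := by positivity
    nlinarith [mul_le_mul_of_nonneg_left this hpos]
  have hq2 : ((univ.image P).card : ℝ) ≤ (2 / delta ^ 2 / k) * cut mu S := by
    refine le_trans hq ?_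
    have h1' : (1 : ℝ) ≤ cut mu S / k := by rw [le_div_iff₀ hk0]; linarith
    have h2' : 2 / delta ≤ 2 / delta ^ 2 := by
      apply div_le_div_of_nonneg_left (by norm_num) (by positivity)
      nlinarith
    calc 2 / delta ≤ 2 / delta ^ 2 := h2'
      _ = 2 / delta ^ 2 * 1 := by ring
      _ ≤ 2 / delta ^ 2 * (cut mu S / k) := mul_le_mul_of_nonneg_left h1' (by positivity)
      _ = _ := by ring
  have hfin : (treeCut T S : ℝ) ≤ treeCut F S + (univ.image P).card := by
    exact_mod_cast hcutT S
  calc (treeCut T S : ℝ) ≤ treeCut F S + (univ.image P).card := hfin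
    _ ≤ (72 / delta ^ 2 / k) * cut mu S + (2 / delta ^ 2 / k) * cut mu S := by linarith
    _ = 74 / delta ^ 2 / k * cut mu S := by ring

end main

end Vale.P061.FIN
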