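import Vale.Agent.P061.Defs

/-! # P061, module FOREST (helper8): a maximal forest of bounded degree is connected in every class -/

namespace Vale.P061.FOREST
open Finset SimpleGraph

universe u

variable {V : Type u} [Fintype V] [DecidableEq V]

/-- degree -/
noncomputable def d (F : SimpleGraph V) (v : V) : ℕ := (F.neighborSet v).ncard

lemma d_sup (F : SimpleGraph V) {u v : V} (huv : u ≠ v) (h : ¬ F.Adj u v) (w : V) :
    d (F ⊔ edge u v) w = d F w + (if w = u then 1 else 0) + (if w = v then 1 else 0) := by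
  unfold d
  by_cases hu : w = u
  · subst hu
    rw [if_pos rfl, if_neg huv]
    have e1 : (F ⊔ edge w v).neighborSet w = insert v (F.neighborSet w) := by
      ext x
      simp only [mem_neighborSet, sup_adj, edge_adj, Set.mem_insert_iff]
      constructor
      · rintro (h1 | ⟨(⟨_, h2⟩ | ⟨h2, _⟩), _⟩)
        · exact Or.inr h1
        · exact Or.inl h2
        · exact absurd h2 huv
      · rintro (h1 | h1)
        · right
          exact ⟨Or.inl ⟨trivial, h1⟩, by rw [h1]; exact huv⟩
        · exact Or.inl h1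
    rw [e1, Set.ncard_insert_of_notMem (by simpa using h) (Set.toFinite _)]
  · rw [if_neg hu]
    by_cases hv : w = v
    · subst hv
      rw [if_pos rfl]
      have e1 : (F ⊔ edge u w).neighborSet w = insert u (F.neighborSet w) := by
        ext x
        simp only [mem_neighborSet, sup_adj, edge_adj, Set.mem_insert_iff]
        constructor
        · rintro (h1 | ⟨(⟨h2, _⟩ | ⟨_, h2⟩), _⟩)
          · exact Or.inr h1
          · exact absurd h2 hu
          · exact Or.inl h2
        · rintro (h1 | h1)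
          · right
            exact ⟨Or.inr ⟨trivial, h1⟩, by rw [h1]; exact hu⟩
          · exact Or.inl h1
      have h' : u ∉ F.neighborSet w := by
        intro h1
        exact h (F.adj_symm h1)
      rw [e1, Set.ncard_insert_of_notMem h' (Set.toFinite _)]
    · rw [if_neg hv]
      have e1 : (F ⊔ edge u v).neighborSet w = F.neighborSet w := by
        ext x
        simp only [mem_neighborSet, sup_adj, edge_adj]
        constructor
        · rintro (h1 | ⟨(⟨h2, _⟩ | ⟨h2, _⟩), _⟩)
          · exact h1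
          · exact absurd h2 hu
          · exact absurd h2 hv
        · exact Or.inl
      rw [e1]
      simp

/-- closed under adjacency -/
def Cl (F : SimpleGraph V) (K : Finset V) : Prop := ∀ x ∈ K, ∀ y, F.Adj x y → y ∈ K

/-- the forest invariant -/
def Inv (F : SimpleGraph V) : Prop :=
  ∀ K : Finset V, K.Nonempty → Cl F K → ∑ v ∈ K, d F v + 2 ≤ 2 * K.card

omit [Fintype V] [DecidableEq V] in
lemma inv_bot : Inv (⊥ : SimpleGraph V) := by
  intro K hK _
  have h0 : ∀ v, d (⊥ : SimpleGraph V) v = 0 := by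
    intro v
    unfold d
    have : (⊥ : SimpleGraph V).neighborSet v = ∅ := by
      ext x
      simp
    rw [this, Set.ncard_empty]
  have h1 := hK.card_pos
  have h2 : ∑ v ∈ K, d (⊥ : SimpleGraph V) v = 0 := sum_eq_zero fun v _ => h0 v
  omega

open Classical in
lemma inv_sup {F : SimpleGraph V} (hF : Inv F) {u v : V} (h : ¬ F.Reachable u v) :
    Inv (F ⊔ edge u v) := by
  have huv : u ≠ v := by
    rintro rfl
    exact h (Reachable.refl u)
  have hadj : ¬ F.Adj u v := fun h1 => h h1.reachable
  intro K hK hcl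
  have hclF : Cl F K := fun x hx y hxy => hcl x hx y (Or.inl hxy)
  have hsum : ∑ w ∈ K, d (F ⊔ edge u v) w = ∑ w ∈ K, d F w + (if u ∈ K then 1 else 0) +
      (if v ∈ K then 1 else 0) := by
    have e1 : ∀ w ∈ K, d (F ⊔ edge u v) w = d F w + (if w = u then 1 else 0) +
        (if w = v then 1 else 0) := by
      intro w _
      rw [d_sup F huv hadj w]
    rw [sum_congr rfl e1, sum_add_distrib, sum_add_distrib, sum_ite_eq' K u, sum_ite_eq' K v]
  rw [hsum]
  by_cases hu : u ∈ K
  · have hv : v ∈ K := by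
      refine hcl u hu v (Or.inr ?_)
      rw [edge_adj]
      exact ⟨Or.inl ⟨rfl, rfl⟩, huv⟩
    rw [if_pos hu, if_pos hv]
    set K1 := K.filter fun w => F.Reachable u w with hK1
    set K2 := K.filter fun w => ¬ F.Reachable u w with hK2
    have c1 : Cl F K1 := by
      intro x hx y hxy
      rw [hK1, mem_filter] at hx ⊢
      exact ⟨hclF x hx.1 y hxy, hx.2.trans hxy.reachable⟩
    have c2 : Cl F K2 := by
      intro x hx y hxy
      rw [hK2, mem_filter] at hx ⊢
      exact ⟨hclF x hx.1 y hxy, fun h1 => hx.2 (h1.trans hxy.symm.reachable)⟩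
    have n1 : K1.Nonempty := ⟨u, by rw [hK1, mem_filter]; exact ⟨hu, Reachable.refl u⟩⟩
    have n2 : K2.Nonempty := ⟨v, by rw [hK2, mem_filter]; exact ⟨hv, h⟩⟩
    have i1 := hF K1 n1 c1
    have i2 := hF K2 n2 c2
    have s1 : ∑ w ∈ K1, d F w + ∑ w ∈ K2, d F w = ∑ w ∈ K, d F w :=
      sum_filter_add_sum_filter_not K _ _
    have s2 : K1.card + K2.card = K.card := card_filter_add_card_filter_not _
    omega
  · have hv : v ∉ K := by
      intro hv
      apply hu
      refine hcl v hv u (Or.inr ?_)
      rw [edge_adj]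
      exact ⟨Or.inr ⟨rfl, rfl⟩, huv.symm⟩
    rw [if_neg hu, if_neg hv]
    have := hF K hK hclF
    omega

/-- the properties of the forests considered -/
def Good (G : SimpleGraph V) (D : ℕ) (F : SimpleGraph V) : Prop :=
  F ≤ G ∧ F.IsAcyclic ∧ (∀ v, d F v ≤ D) ∧ Inv F

theorem thm : StmtFOREST.{u} := by
  classical
  intro V _ _ P G D hD hGP hH
  have hfin : {F : SimpleGraph V | Good G D F}.Finite := Set.toFinite _
  have hne : {F : SimpleGraph V | Good G D F}.Nonempty := by
    refine ⟨⊥, bot_le, isAcyclic_bot, fun v => ?_, inv_bot⟩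
    unfold d
    have : (⊥ : SimpleGraph V).neighborSet v = ∅ := by
      ext x
      simp
    rw [this, Set.ncard_empty]
    exact Nat.zero_le _
  obtain ⟨F, hF⟩ := hfin.exists_maximal hne
  obtain ⟨⟨hFG, hac, hdeg, hinv⟩, hmax⟩ := hF
  refine ⟨F, hFG, hac, hdeg, ?_⟩
  intro u₀ v₀ hP
  by_contra hnr
  set C := cls P (P u₀) with hC
  have hmemC : ∀ w, w ∈ C ↔ P w = P u₀ := by
    intro w
    rw [hC]
    unfold cls
    simp
  have hclC : Cl F C := by
    intro x hx y hxy
    rw [hmemC] at hx ⊢
    rw [← hGP x y (hFG hxy), hx]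
  set A0 := C.filter fun w => F.Reachable u₀ w with hA0
  set B0 := C.filter fun w => ¬ F.Reachable u₀ w with hB0
  set S := C.filter fun w => D ≤ d F w with hS
  have c1 : Cl F A0 := by
    intro x hx y hxy
    rw [hA0, mem_filter] at hx ⊢
    exact ⟨hclC x hx.1 y hxy, hx.2.trans hxy.reachable⟩
  have c2 : Cl F B0 := by
    intro x hx y hxy
    rw [hB0, mem_filter] at hx ⊢
    exact ⟨hclC x hx.1 y hxy, fun h1 => hx.2 (h1.trans hxy.symm.reachable)⟩
  have n1 : A0.Nonempty := ⟨u₀, by
    rw [hA0, mem_filter]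
    exact ⟨(hmemC _).2 rfl, Reachable.refl _⟩⟩
  have n2 : B0.Nonempty := ⟨v₀, by
    rw [hB0, mem_filter]
    exact ⟨(hmemC _).2 hP.symm, hnr⟩⟩
  have key : ∀ K : Finset V, K.Nonempty → Cl F K → K ⊆ C → (K \ S).Nonempty := by
    intro K hK hcl hKC
    by_contra hcon
    rw [not_nonempty_iff_eq_empty, sdiff_eq_empty_iff_subset] at hcon
    have h1 : ∀ w ∈ K, 2 ≤ d F w := by
      intro w hw
      have := hcon hw
      rw [hS, mem_filter] at this
      omega
    have h2 : ∑ w ∈ K, 2 ≤ ∑ w ∈ K, d F w := sum_le_sum h1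
    rw [sum_const, smul_eq_mul] at h2
    have h3 := hinv K hK hcl
    omega
  have hScard : S.card * D < 2 * C.card := by
    have h1 : ∑ w ∈ S, D ≤ ∑ w ∈ S, d F w := by
      refine sum_le_sum fun w hw => ?_
      rw [hS, mem_filter] at hw
      exact hw.2
    rw [sum_const, smul_eq_mul] at h1
    have h2 : ∑ w ∈ S, d F w ≤ ∑ w ∈ C, d F w :=
      sum_le_sum_of_subset (filter_subset _ _)
    have h3 := hinv C ⟨u₀, (hmemC _).2 rfl⟩ hclC
    omega
  obtain ⟨u, hu, v, hv, huv⟩ := hH (P u₀) (A0 \ S) (B0 \ S) S (by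
      ext w
      simp only [mem_union, mem_sdiff]
      change _ ↔ w ∈ C
      constructor
      · rintro ((h | h) | h)
        · exact (mem_filter.1 h.1).1
        · exact (mem_filter.1 h.1).1
        · exact (mem_filter.1 h).1
      · intro h
        by_cases h1 : w ∈ S
        · exact Or.inr h1
        · left
          by_cases h2 : F.Reachable u₀ w
          · exact Or.inl ⟨mem_filter.2 ⟨h, h2⟩, h1⟩
          · exact Or.inr ⟨mem_filter.2 ⟨h, h2⟩, h1⟩)
    (by
      rw [Finset.disjoint_left]
      intro w h1 h2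
      rw [mem_sdiff] at h1 h2
      exact (mem_filter.1 h2.1).2 (mem_filter.1 h1.1).2)
    (by
      rw [Finset.disjoint_left]
      intro w h1 h2
      exact (mem_sdiff.1 h1).2 h2)
    (by
      rw [Finset.disjoint_left]
      intro w h1 h2
      exact (mem_sdiff.1 h1).2 h2)
    (key A0 n1 c1 (filter_subset _ _)) (key B0 n2 c2 (filter_subset _ _)) hScard
  rw [mem_sdiff] at hu hv
  obtain ⟨huC, hur⟩ := mem_filter.1 hu.1
  obtain ⟨hvC, hvr⟩ := mem_filter.1 hv.1
  have hnuv : ¬ F.Reachable u v := fun h1 => hvr (hur.trans h1)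
  have hne' : u ≠ v := by
    rintro rfl
    exact hnuv (Reachable.refl _)
  have hdu : d F u < D := by
    by_contra hcon
    exact hu.2 (mem_filter.2 ⟨huC, not_lt.1 hcon⟩)
  have hdv : d F v < D := by
    by_contra hcon
    exact hv.2 (mem_filter.2 ⟨hvC, not_lt.1 hcon⟩)
  have hnadj : ¬ F.Adj u v := fun h1 => hnuv h1.reachable
  have hgood : Good G D (F ⊔ edge u v) := by
    refine ⟨?_, hac.sup_edge_of_not_reachable hnuv, ?_, inv_sup hinv hnuv⟩
    · refine sup_le hFG ?_
      intro x y hxy
      rw [edge_adj] at hxy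
      obtain ⟨(⟨rfl, rfl⟩ | ⟨rfl, rfl⟩), _⟩ := hxy
      · exact huv
      · exact huv.symm
    · intro w
      rw [d_sup F hne' hnadj w]
      have h0 := hdeg w
      by_cases h1 : w = u
      · subst h1
        rw [if_pos rfl, if_neg hne']
        omega
      · rw [if_neg h1]
        by_cases h2 : w = v
        · subst h2
          rw [if_pos rfl]
          omega
        · rw [if_neg h2]
          omega
  have hle := hmax hgood le_sup_left
  apply hnadj
  apply hle
  right
  rw [edge_adj]
  exact ⟨Or.inl ⟨rfl, rfl⟩, hne'⟩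

end Vale.P061.FOREST
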