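import Vale.Agent.P061.Defs

/-! # P061, module LOW: every spanning tree of `K_(k+1)` has thinness at least `4k/(k+1)^2`
(helper15) -/

namespace Vale.P061.LOW

open Finset

open Classical in
theorem treeCut_color {V : Type*} [Fintype V] {T : SimpleGraph V} (C : T.Coloring (Fin 2)) :
    treeCut T (univ.filter (fun v => C v = 0)) = T.edgeFinset.card := by
  set S := univ.filter (fun v => C v = 0) with hS
  have hadj : ∀ u v, T.Adj u v → (u ∈ S ↔ v ∉ S) := by
    intro u v h
    have h1 := C.valid h
    simp only [hS, Finset.mem_filter, Finset.mem_univ, true_and]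
    generalize C u = a at *
    generalize C v = b at *
    revert a b
    decide
  have hdeg : ∀ u, T.degree u = ∑ v, (if T.Adj u v then 1 else 0) := by
    intro u
    rw [← SimpleGraph.card_neighborFinset_eq_degree, SimpleGraph.neighborFinset_eq_filter,
      Finset.card_filter]
  have h2 : ∑ u, ∑ v, (if T.Adj u v then 1 else 0) = 2 * T.edgeFinset.card := by
    rw [← T.sum_degrees_eq_twice_card_edges]
    exact Finset.sum_congr rfl fun u _ => (hdeg u).symm
  have hin : ∀ u ∈ S, ∑ v, (if T.Adj u v then 1 else 0) =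
      ∑ v ∈ Sᶜ, (if T.Adj u v then 1 else 0) := by
    intro u hu
    rw [← Finset.sum_add_sum_compl S]
    have : ∑ v ∈ S, (if T.Adj u v then 1 else 0) = 0 := Finset.sum_eq_zero fun v hv => by
      rw [if_neg]
      intro h
      exact ((hadj u v h).1 hu) hv
    rw [this, zero_add]
  have hout : ∀ u ∈ Sᶜ, ∑ v, (if T.Adj u v then 1 else 0) =
      ∑ v ∈ S, (if T.Adj u v then 1 else 0) := by
    intro u hu
    rw [← Finset.sum_add_sum_compl S]
    have : ∑ v ∈ Sᶜ, (if T.Adj u v then 1 else 0) = 0 := Finset.sum_eq_zero fun v hv => by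
      rw [if_neg]
      intro h
      rw [Finset.mem_compl] at hu hv
      exact hu ((hadj u v h).2 hv)
    rw [this, add_zero]
  rw [← Finset.sum_add_sum_compl S, Finset.sum_congr rfl hin, Finset.sum_congr rfl hout,
    Finset.sum_comm (s := Sᶜ) (t := S)] at h2
  have hsym : ∑ v ∈ S, ∑ u ∈ Sᶜ, (if T.Adj u v then 1 else 0) =
      ∑ u ∈ S, ∑ v ∈ Sᶜ, (if T.Adj u v then 1 else 0) := by
    refine Finset.sum_congr rfl fun v _ => Finset.sum_congr rfl fun u _ => ?_
    simp only [T.adj_comm]
  rw [hsym] at h2
  unfold treeCut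
  omega

theorem thm : StmtLOW := by
  classical
  intro k hk T hT alpha hth
  obtain ⟨C⟩ := hT.1.colorable_two
  have htc := treeCut_color C
  have hedge : T.edgeFinset.card = k := by
    have := hT.1.card_edgeFinset
    rw [Fintype.card_fin] at this
    omega
  rw [hedge] at htc
  set S := univ.filter (fun v => C v = 0) with hS
  have hSne : S.Nonempty := by
    by_contra hcon
    rw [Finset.not_nonempty_iff_eq_empty] at hcon
    rw [hcon] at htc
    unfold treeCut at htc
    simp at htc
    omega
  have hSun : S ≠ univ := by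
    intro hcon
    rw [hcon] at htc
    unfold treeCut at htc
    simp at htc
    omega
  have hcut : cut (fun u v : Fin (k + 1) => if u = v then 0 else 1) S = S.card * Sᶜ.card := by
    unfold cut
    have : ∀ u ∈ S, ∑ v ∈ Sᶜ, (if u = v then 0 else 1) = Sᶜ.card := by
      intro u hu
      rw [Finset.card_eq_sum_ones]
      refine Finset.sum_congr rfl fun v hv => ?_
      rw [if_neg]
      rintro rfl
      exact (Finset.mem_compl.1 hv) hu
    rw [Finset.sum_congr rfl this, Finset.sum_const, smul_eq_mul]
  have h1 := hth S hSne hSun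
  rw [htc, hcut] at h1
  push_cast at h1
  have hcard : (S.card : ℝ) + (Sᶜ.card : ℝ) = (k : ℝ) + 1 := by
    have := Finset.card_add_card_compl S
    rw [Fintype.card_fin] at this
    exact_mod_cast this
  have hSp : (0 : ℝ) < S.card := by exact_mod_cast Finset.card_pos.2 hSne
  have hScp : (0 : ℝ) < Sᶜ.card := by
    have : Sᶜ.Nonempty := by
      rw [Finset.nonempty_iff_ne_empty]
      intro h
      exact hSun ((Finset.compl_eq_empty_iff S).1 h)
    exact_mod_cast Finset.card_pos.2 this
  have hk' : (0 : ℝ) < k := by exact_mod_cast hk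
  have halpha : 0 < alpha := by
    by_contra hcon
    push Not at hcon
    have : alpha * ((S.card : ℝ) * (Sᶜ.card : ℝ)) ≤ 0 :=
      mul_nonpos_of_nonpos_of_nonneg hcon (mul_pos hSp hScp).le
    linarith
  have hq : (S.card : ℝ) * (Sᶜ.card : ℝ) ≤ ((k : ℝ) + 1) ^ 2 / 4 := by
    rw [← hcard]
    nlinarith [sq_nonneg ((S.card : ℝ) - (Sᶜ.card : ℝ))]
  rw [div_le_iff₀ (by positivity)]
  have := mul_le_mul_of_nonneg_left hq halpha.le
  linarith

end Vale.P061.LOW
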